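import Vale.Agent.P207.N7.H790.AqB

/-!
# P207, line N7: the derivative of the charts of the neighbouring leaves

Joint continuity in `(x, ξ, q)` of `P.Aq x ξ q` and of its derivative, and the lower bound of the
derivative.
-/

set_option linter.all false
set_option maxSynthPendingDepth 3

open Set Filter Topology Metric MeasureTheory
open scoped ContDiff

noncomputable section

namespace Vale.Agent.P207.N4.Y.H790

open Vale.Agent.P207.N4.H790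

open Vale.Agent.P207.N3

variable [Dim]

variable {Γ X B : Type} [Group Γ] [MetricSpace X] [ProperSpace X] [MulAction Γ X]
  [IsIsometricSMul Γ X] [TopologicalSpace B] [CompactSpace B] [T2Space B] [MulAction Γ B]
  [ContinuousConstSMul Γ B] {L : Leaf Γ X B} [MeasurableSpace B] [BorelSpace B] {V : Type}
  [NormedAddCommGroup V] [NormedSpace ℝ V] [FiniteDimensional ℝ V]

theorem pair_cont (L : Leaf Γ X B) : ContinuousOn (fun p : (X × B) × E2 =>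
    (((p.1.1, L.hol p.1.2 p.1.1), p.2) : (X × X) × E2)) {p | p.1.2 ≠ L.ep p.1.1} := by
  have h1 : ContinuousOn (fun p : (X × B) × E2 => L.hol p.1.2 p.1.1) {p | p.1.2 ≠ L.ep p.1.1} :=
    L.hol_cont.comp (f := fun p : (X × B) × E2 => ((p.1.2, p.1.1) : B × X)) (by fun_prop)
      fun p hp => hp
  have h0 : ContinuousOn (fun p : (X × B) × E2 => p.1.1) {p | p.1.2 ≠ L.ep p.1.1} := by
    fun_prop
  have h2 : ContinuousOn (fun p : (X × B) × E2 => p.2) {p | p.1.2 ≠ L.ep p.1.1} := by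
    fun_prop
  exact (h0.prodMk h1).prodMk h2

/-- joint continuity of all the derivatives of `Aq`, near the diagonal -/
theorem exists_aq_cont (P : Pic L V) : ∃ ρ : ℝ, 0 < ρ ∧ ∀ k : ℕ,
    ContinuousOn (fun p : (X × B) × E2 => iteratedFDeriv ℝ k (P.Aq p.1.1 p.1.2) p.2)
      {p | 0 ≤ P.Bu.nu p.1.1 p.1.2 0 ∧ ‖P.gr p.1.1 p.1.2 0‖ ≤ ρ ∧
        p.2 ∈ closedBall (0 : E2) 2} := by
  obtain ⟨ρ, hρ, H, -⟩ := exists_aqB P
  refine ⟨ρ, hρ, fun k => ?_⟩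
  have h1 : ContinuousOn (fun p : (X × B) × E2 =>
      iteratedFDeriv ℝ k (Gz P (p.1.1, L.hol p.1.2 p.1.1)) p.2)
      {p | 0 ≤ P.Bu.nu p.1.1 p.1.2 0 ∧ ‖P.gr p.1.1 p.1.2 0‖ ≤ ρ ∧
        p.2 ∈ closedBall (0 : E2) 2} :=
    ((Gz_jc P).cont k).comp ((pair_cont L).mono fun p hp => (H p.1.1 p.1.2 hp.1 hp.2.1).1)
      fun p hp => (H p.1.1 p.1.2 hp.1 hp.2.1).2 p.2 hp.2.2
  refine h1.congr fun p hp => ?_
  obtain ⟨hξ, hS⟩ := H p.1.1 p.1.2 hp.1 hp.2.1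
  have h2 : P.Aq p.1.1 p.1.2 =ᶠ[𝓝 p.2] Gz P (p.1.1, L.hol p.1.2 p.1.1) := by
    filter_upwards [(isOpen_slice (Gz_jc P).isOpen (p.1.1, L.hol p.1.2 p.1.1)).mem_nhds
      (hS p.2 hp.2.2)] with w hw
    exact Aq_eq hξ hw
  exact (h2.iteratedFDeriv ℝ k).self_of_nhds

/-- joint continuity of the derivative -/
theorem exists_dAq_cont (P : Pic L V) : ∃ ρ : ℝ, 0 < ρ ∧
    ContinuousOn (fun p : (X × B) × E2 => fderiv ℝ (P.Aq p.1.1 p.1.2) p.2)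
      {p | 0 ≤ P.Bu.nu p.1.1 p.1.2 0 ∧ ‖P.gr p.1.1 p.1.2 0‖ ≤ ρ ∧
        p.2 ∈ closedBall (0 : E2) 2} := by
  obtain ⟨ρ, hρ, H, -⟩ := exists_aqB P
  refine ⟨ρ, hρ, ?_⟩
  have h1 : ContinuousOn (fun p : (X × B) × E2 =>
      fderiv ℝ (Gz P (p.1.1, L.hol p.1.2 p.1.1)) p.2)
      {p | 0 ≤ P.Bu.nu p.1.1 p.1.2 0 ∧ ‖P.gr p.1.1 p.1.2 0‖ ≤ ρ ∧
        p.2 ∈ closedBall (0 : E2) 2} :=
    (Gz_jc P).fderiv.continuousOn.comp
      ((pair_cont L).mono fun p hp => (H p.1.1 p.1.2 hp.1 hp.2.1).1)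
      fun p hp => (H p.1.1 p.1.2 hp.1 hp.2.1).2 p.2 hp.2.2
  refine h1.congr fun p hp => ?_
  obtain ⟨hξ, hS⟩ := H p.1.1 p.1.2 hp.1 hp.2.1
  have h2 : P.Aq p.1.1 p.1.2 =ᶠ[𝓝 p.2] Gz P (p.1.1, L.hol p.1.2 p.1.1) := by
    filter_upwards [(isOpen_slice (Gz_jc P).isOpen (p.1.1, L.hol p.1.2 p.1.1)).mem_nhds
      (hS p.2 hp.2.2)] with w hw
    exact Aq_eq hξ hw
  exact h2.fderiv_eq

/-- the derivative at the centre, as a function of the frame (`ξ` fixed) -/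
theorem exists_AqC (P : Pic L V) : ∃ ρ : ℝ, 0 < ρ ∧ ∀ ε₀ ≤ ρ, ∀ ξ,
    ContinuousOn (fun x => fderiv ℝ (P.Aq x ξ) 0) {x | P.Nr ε₀ x ξ} := by
  obtain ⟨ρ, hρ, H⟩ := exists_dAq_cont P
  refine ⟨ρ, hρ, fun ε₀ hε ξ => ?_⟩
  exact H.comp (f := fun x : X => (((x, ξ), (0 : E2)) : (X × B) × E2)) (by fun_prop)
    fun x hx => ⟨hx.1.le, hx.2.trans hε, mem_closedBall_self (by norm_num)⟩

/-- the lower bound of the derivative -/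
theorem exists_dAq_lower (P : Pic L V) : ∃ ρ : ℝ, 0 < ρ ∧ ∀ x ξ, P.Nr ρ x ξ →
    ∀ q ∈ closedBall (0 : E2) 2, ∀ v, ‖v‖ ≤ 2 * ‖fderiv ℝ (P.Aq x ξ) q v‖ := by
  obtain ⟨ρ, hρ, H⟩ := exists_fderiv_close P (ε := 1 / 2) (by norm_num)
  refine ⟨ρ, hρ, fun x ξ hN q hq v => ?_⟩
  have h2 : ‖fderiv ℝ (P.Aq x ξ) q v - v‖ ≤ 1 / 2 * ‖v‖ :=
    (ContinuousLinearMap.le_opNorm (fderiv ℝ (P.Aq x ξ) q - ContinuousLinearMap.id ℝ E2) v).trans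
      (mul_le_mul_of_nonneg_right (H x ξ hN q hq).le (norm_nonneg _))
  have h3 : ‖v‖ ≤ ‖fderiv ℝ (P.Aq x ξ) q v‖ + ‖fderiv ℝ (P.Aq x ξ) q v - v‖ := by
    calc ‖v‖ = ‖fderiv ℝ (P.Aq x ξ) q v - (fderiv ℝ (P.Aq x ξ) q v - v)‖ := by congr 1; abel
      _ ≤ _ := norm_sub_le _ _
  linarith

/-- the derivative as an equivalence, on the whole ball -/
theorem exists_dAq_equiv (P : Pic L V) : ∃ ρ : ℝ, 0 < ρ ∧ ∀ x ξ, P.Nr ρ x ξ →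
    ∀ q ∈ closedBall (0 : E2) 2, ∃ T : E2 ≃L[ℝ] E2,
      (T.symm : E2 →L[ℝ] E2) = fderiv ℝ (P.Aq x ξ) q ∧ ‖(T : E2 →L[ℝ] E2)‖ ≤ 2 ∧
        ‖(T.symm : E2 →L[ℝ] E2)‖ ≤ 2 := by
  obtain ⟨ρ, hρ, H⟩ := exists_fderiv_close P (ε := 1 / 2) (by norm_num)
  exact ⟨ρ, hρ, fun x ξ hN q hq => exists_equiv_of_close (H x ξ hN q hq).le⟩

end Vale.Agent.P207.N4.Y.H790
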