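import Vale.Agent.P207.N7.H790.T2aFin
import Vale.Agent.P207.N7.H469.Dlt
import Vale.Agent.P207.N7.H832.RateP
import Vale.Agent.P207.N7.H734.NearC

/-!
# P207, line N7: the row `P.T2a`, from the rates of the angle only
-/

set_option linter.all false
set_option maxSynthPendingDepth 3

open Set Filter Topology Metric MeasureTheory
open scoped ContDiff

noncomputable section

namespace Vale.Agent.P207.N4.Y.H790

open Vale.Agent.P207.N4.H790

open Vale.Agent.P207.N3

variable [Dim]

variable {Γ X B : Type} [Group Γ] [MetricSpace X] [ProperSpace X] [MulAction Γ X]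
  [IsIsometricSMul Γ X] [TopologicalSpace B] [CompactSpace B] [T2Space B] [MulAction Γ B]
  [ContinuousConstSMul Γ B] {L : Leaf Γ X B} [MeasurableSpace B] [BorelSpace B] {V : Type}
  [NormedAddCommGroup V] [NormedSpace ℝ V] [FiniteDimensional ℝ V]

/-- the clocks of `x` and of `hol ξ x` -/
theorem nrC (P : Pic L V) : NrC P := by
  intro η hη
  obtain ⟨ε, hε, h⟩ := H734.near_sg P hη
  exact ⟨ε, hε, fun x ξ hx t ht => ((h x ξ hx).2 t ht).1⟩

/-- **the row T2a** -/
theorem t2a (P : Pic L V) (hA : H469.AngR P) :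
    ∃ ε₁ : ℝ, 0 < ε₁ ∧ ∀ ε₀, 0 < ε₀ → ε₀ ≤ ε₁ → P.T2a ε₀ :=
  t2a_of (H832.rateP P) hA (H469.harnack (H832.rateP P) hA) (nrC P)

end Vale.Agent.P207.N4.Y.H790
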